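import Vale.Agent.P097.H855.St.Exit
import Vale.Agent.P097.H561.ZoneC
import Vale.Agent.P097.H509.St.Defs

/-!
# P097 / case [c] / block (T), straight coordinates: row ST-2, base / exit over the world `SW`
-/

set_option linter.all false

open Complex Metric Filter Topology Set

namespace Vale.Agent.P097.H855.St

open Vale.Agent.P097.TC Vale.Agent.P097.H845.St Vale.Agent.P097.H226.W
  Vale.Agent.P097.H509.St

/-- boxes inside the unit box and the base quadrant -/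
theorem Pc_sub {X om y x h ρ : ℝ} (ho : 0 < om) (hh : 0 < h) (hy : |y| + X * h < ρ)
    (hx : |x| + X * h < ρ) : Pc X om y x h ⊆ Bx ρ ∩ Qu := by
  rintro z ⟨a1, a2, a3, a4, a5, a6⟩
  have h1 : 0 < om * h := mul_pos ho hh
  have hy0 := abs_nonneg y
  have hx0 := abs_nonneg x
  have b1 := abs_sub_abs_le_abs_sub z.1.re y
  have b2 := abs_sub_abs_le_abs_sub z.2.re x
  refine ⟨⟨by linarith, ?_, by linarith, ?_⟩, ?_, ?_⟩
  · rw [abs_lt]; constructor <;> linarith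
  · rw [abs_lt]; constructor <;> linarith
  · linarith
  · linarith

theorem Qu_sub {δ : ℝ} (hδ : 0 < δ) : Qu ⊆ Wd δ := by
  rintro z ⟨h1, h2⟩
  exact ⟨h2, h1.trans (mul_pos hδ h2)⟩

variable {Λ H : ℝ} {F q : ℂ → ℂ}

/-- the curve of the straight world in the form of Defs5 -/
theorem crv_of (hC : Cv Λ H F q) (hG : Grw H F q) (hP : Per H F q) : A5.Crv Λ H F q where
  cv := hC
  Fp := hP.Fp
  qp := hP.qp
  gro := by
    intro a ha
    obtain ⟨C, hb⟩ := hG a ha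
    refine ⟨max C 1, lt_max_of_lt_right one_pos, fun x hx => ?_⟩
    obtain ⟨h1, h2, h3, h4⟩ := hb x hx
    have h0 : 0 ≤ H - |x.im| := by
      have : |x.im| < H := hx
      linarith
    have hm : C * (H - |x.im|) ^ (-a) ≤ max C 1 * (H - |x.im|) ^ (-a) :=
      mul_le_mul_of_nonneg_right (le_max_left _ _) (Real.rpow_nonneg h0 _)
    have e1 := Real.exp_le_exp.2 hm
    have e2 := Real.exp_le_exp.2 e1
    exact ⟨h1.trans e1, h2.trans e1, h3.trans e2, h4.trans e2⟩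

/-- **EXIT-ST, uniform form** (periodic curve, no compact set of positions): along the boxes of the
windows `(y', x', 2 ^ -(m+i))`, `i = 0, 1, ..`, whose positions tend to the wall, the sum of the
truncated oscillations of the line `(al, p)` up to the exit is at least `ρ`; before the exit the
line is within `ρ` of its value at `z₀` (any R2-free mid-level point of the first box) and the
position stays mid-level and R2-free. -/
theorem exit_c (hC : A5.Crv Λ H F q) {c₀ d R : ℝ} (hc : 0 < c₀) (hd : 0 < d) :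
    ∃ ρ₀ > 0, ρ₀ ≤ 1 ∧ ∀ {X om : ℝ}, 2 ≤ X → 0 < om → om ≤ 1 / 2 → ∀ {al p th : ℂ × ℂ → ℂ}
      {V : Set (ℂ × ℂ)}, ContinuousOn al V → ContinuousOn p V → ContinuousOn th V →
      (∀ z ∈ V, th z ∈ Sb H) → (∀ z ∈ V, Mi F q (al z) (p z) (th z) = 0) →
      ∀ {y' x' : ℝ} {m : ℕ}, (∀ i : ℕ, Pc X om y' x' ((1 / 2) ^ (m + i)) ⊆ V) →
      ∀ {z₀ : ℂ × ℂ}, z₀ ∈ Pc X om y' x' ((1 / 2) ^ m) → |(th z₀).im| ≤ H - c₀ →
      d ≤ ‖deriv F (th z₀)‖ → |(al z₀).im| ≤ R →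
      Tendsto (fun h : ℝ => |(th (pt y' x' h)).im|) (𝓝[>] 0) (𝓝 H) → ∀ ρ : ℝ, ρ ≤ ρ₀ →
      ∃ n : ℕ, ρ ≤ ∑ i ∈ Finset.range (n + 1),
          Es (LL al p) X om y' x' ((1 / 2) ^ (m + i)) ∧
        ∀ i < n, ∀ z ∈ Pc X om y' x' ((1 / 2) ^ (m + i)),
          ‖LL al p z - LL al p z₀‖ < ρ ∧ |(th z).im| ≤ H - c₀ / 2 ∧
            d / 2 ≤ ‖deriv F (th z)‖ ∧ ‖th z - th z₀‖ < 1 ∧ ‖F (th z) - F (th z₀)‖ < 1 := by
  obtain ⟨ρ₁, hρ₁, hz⟩ := H561.ZoneC.zone_c.{0} hC (c₀ := c₀) (δ := d) (R := R) hc hd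
  refine ⟨min ρ₁ 1, lt_min hρ₁ one_pos, min_le_right _ _, ?_⟩
  intro X om hX ho ho2 al p th V hal hp hth mem inc y' x' m hV z₀ hz₀ h1 h2 h3 hwall ρ hρ
  obtain ⟨n, hn1, hn2⟩ := exit_gen hX ho ho2 (L := LL al p) (hal.prodMk hp) hV hz₀
    (G := fun z => |(th z).im| ≤ H - c₀ / 2 ∧ d / 2 ≤ ‖deriv F (th z)‖ ∧ ‖th z - th z₀‖ < 1 ∧
      ‖F (th z) - F (th z₀)‖ < 1) (ρ₀ := min ρ₁ 1)
    (fun T hT hTV hzT hTL z hzz => by
      refine hz (a := al) (p := p) (x := th) hT hzT (hth.mono hTV) h1 h2 h3 (fun w hw => ?_) z hzz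
      have k1 := hTL w hw
      rw [Prod.norm_def] at k1
      simp only [LL, Prod.fst_sub, Prod.snd_sub] at k1
      have k2 := k1.trans_le (min_le_left _ _)
      exact ⟨(le_max_left _ _).trans_lt k2, (le_max_right _ _).trans_lt k2, mem w (hTV hw),
        inc w (hTV hw)⟩)
    (by
      have h4 : ∀ᶠ h in 𝓝[>] (0 : ℝ), H - c₀ / 2 < |(th (pt y' x' h)).im| :=
        hwall.eventually_const_lt (by linarith)
      have h5 : Tendsto (fun i : ℕ => ((1 : ℝ) / 2) ^ (m + i)) atTop (𝓝[>] 0) := by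
        refine tendsto_nhdsWithin_iff.2 ⟨?_, Eventually.of_forall fun i =>
          (by positivity : (0 : ℝ) < (1 / 2) ^ (m + i))⟩
        have := tendsto_pow_atTop_nhds_zero_of_lt_one (r := (1 : ℝ) / 2) (by norm_num)
          (by norm_num)
        exact this.comp (tendsto_atTop_mono (fun i => Nat.le_add_left i m) tendsto_id)
      obtain ⟨i, hi⟩ := (h5.eventually h4).exists
      have h6 : (0 : ℝ) < (1 / 2) ^ (m + i) := by positivity
      exact ⟨i, _, pt_self hX ho2 h6, fun hcon => absurd hcon.1 (not_le.2 hi)⟩)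
    hρ
  exact ⟨n, sum_trunc (fun i => Metric.diam_nonneg) (hρ.trans (min_le_right _ _)) hn1,
    fun i hi => (hn2 i hi).2⟩

/-- the same over the world `SW`: the boxes have to be inside the unit box -/
theorem exit_sw (hC : A5.Crv Λ H F q) {c₀ d R : ℝ} (hc : 0 < c₀) (hd : 0 < d) :
    ∃ ρ₀ > 0, ρ₀ ≤ 1 ∧ ∀ {X om : ℝ}, 2 ≤ X → 0 < om → om ≤ 1 / 2 → ∀ {δ : ℝ}
      {al p th : ℂ × ℂ → ℂ}, SW Λ H F q δ 1 al p th →
      ∀ {y' x' : ℝ} {m : ℕ}, |y'| + X * (1 / 2) ^ m < 1 → |x'| + X * (1 / 2) ^ m < 1 →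
      ∀ {z₀ : ℂ × ℂ}, z₀ ∈ Pc X om y' x' ((1 / 2) ^ m) → |(th z₀).im| ≤ H - c₀ →
      d ≤ ‖deriv F (th z₀)‖ → |(al z₀).im| ≤ R →
      Tendsto (fun h : ℝ => |(th (pt y' x' h)).im|) (𝓝[>] 0) (𝓝 H) → ∀ ρ : ℝ, ρ ≤ ρ₀ →
      ∃ n : ℕ, ρ ≤ ∑ i ∈ Finset.range (n + 1),
          Es (LL al p) X om y' x' ((1 / 2) ^ (m + i)) ∧
        ∀ i < n, ∀ z ∈ Pc X om y' x' ((1 / 2) ^ (m + i)),
          ‖LL al p z - LL al p z₀‖ < ρ ∧ |(th z).im| ≤ H - c₀ / 2 ∧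
            d / 2 ≤ ‖deriv F (th z)‖ ∧ ‖th z - th z₀‖ < 1 ∧ ‖F (th z) - F (th z₀)‖ < 1 := by
  obtain ⟨ρ₀, h1, h2, hE⟩ := exit_c hC (c₀ := c₀) (d := d) (R := R) hc hd
  refine ⟨ρ₀, h1, h2, ?_⟩
  intro X om hX ho ho2 δ al p th S y' x' m hy hx z₀ hz₀ k1 k2 k3 hw ρ hρ
  have hX0 : 0 ≤ X := by linarith
  refine hE hX ho ho2 (V := Bx 1 ∩ Qu)
    (S.dal.continuousOn.mono (inter_subset_inter_right _ (Qu_sub S.δ0)))
    (S.dp.continuousOn.mono (inter_subset_inter_right _ (Qu_sub S.δ0)))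
    S.sq.dth.continuousOn S.sq.mem S.sq.inc (fun i => ?_) hz₀ k1 k2 k3 hw ρ hρ
  have h3 : X * (1 / 2 : ℝ) ^ (m + i) ≤ X * (1 / 2) ^ m := by
    refine mul_le_mul_of_nonneg_left ?_ hX0
    exact pow_le_pow_of_le_one (by norm_num) (by norm_num) (Nat.le_add_right m i)
  exact Pc_sub ho (by positivity) (by linarith) (by linarith)

/-- start point: an `Md` point of scale `2 ^ -m` of the apex `0` lies in the first box of the
apex `(y', 0)`, `|y'| ≤ 2 ^ -m` -/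
theorem start_mem {X X₀ om om₀ y' h : ℝ} (hX : X₀ + 1 ≤ X) (ho : om ≤ om₀) (hh : 0 < h)
    (hy : |y'| ≤ h) {β : ℂ × ℂ} (h1 : om₀ * h ≤ -β.1.im) (h2 : om₀ * h ≤ β.2.im)
    (h3 : ‖β‖ ≤ X₀ * h) : β ∈ Pc X om y' 0 h := by
  have k1 : (X₀ + 1) * h ≤ X * h := mul_le_mul_of_nonneg_right hX hh.le
  have k2 : om * h ≤ om₀ * h := mul_le_mul_of_nonneg_right ho hh.le
  have n1 : ‖β.1‖ ≤ ‖β‖ := norm_fst_le _
  have n2 : ‖β.2‖ ≤ ‖β‖ := norm_snd_le _
  have r1 := Complex.abs_re_le_norm β.1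
  have r2 := Complex.abs_re_le_norm β.2
  have i1 := abs_le.1 (Complex.abs_im_le_norm β.1)
  have i2 := abs_le.1 (Complex.abs_im_le_norm β.2)
  refine ⟨?_, ?_, ?_, ?_, ?_, ?_⟩
  · exact (abs_sub _ _).trans (by linarith)
  · rw [sub_zero]; linarith
  · linarith
  · linarith
  · linarith
  · linarith

end Vale.Agent.P097.H855.St
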