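import Vale.Agent.P097.H845.St.Chain

/-!
# P097 / case [c] / block (T), straight coordinates: row ST-2, base / exit (abstract part)

Boxes `Pc X om y' x' 2 ^ -(m+i)` of the windows over one apex `(y', x')`.  `G` = position
mid-level and not R2; it holds on connected sets on which the line moves by less than `ρ₀`.
-/

set_option linter.all false

open Complex Metric Filter Topology Set

namespace Vale.Agent.P097.H855.St

open Vale.Agent.P097.H845.St

theorem Pc_convex (X om y x h : ℝ) : Convex ℝ (Pc X om y x h) := by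
  have e : Pc X om y x h = {z : ℂ × ℂ | z.1.re ≤ y + X * h} ∩ {z | y - X * h ≤ z.1.re} ∩
      {z | z.2.re ≤ x + X * h} ∩ {z | x - X * h ≤ z.2.re} ∩ {z | z.1.im ≤ -(om * h)} ∩
      {z | -(X * h) ≤ z.1.im} ∩ {z | om * h ≤ z.2.im} ∩ {z | z.2.im ≤ X * h} := by
    ext z
    simp only [Pc, mem_setOf_eq, mem_inter_iff, abs_le]
    constructor
    · rintro ⟨⟨a1, a2⟩, ⟨a3, a4⟩, a5, a6, a7, a8⟩
      exact ⟨⟨⟨⟨⟨⟨⟨by linarith, by linarith⟩, by linarith⟩, by linarith⟩, by linarith⟩,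
        by linarith⟩, a7⟩, a8⟩
    · rintro ⟨⟨⟨⟨⟨⟨⟨a1, a2⟩, a3⟩, a4⟩, a5⟩, a6⟩, a7⟩, a8⟩
      exact ⟨⟨by linarith, by linarith⟩, ⟨by linarith, by linarith⟩, by linarith, by linarith,
        a7, a8⟩
  have l1 : IsLinearMap ℝ (fun z : ℂ × ℂ => z.1.re) :=
    ⟨fun a c => by simp, fun a c => by simp⟩
  have l2 : IsLinearMap ℝ (fun z : ℂ × ℂ => z.2.re) :=
    ⟨fun a c => by simp, fun a c => by simp⟩
  have l3 : IsLinearMap ℝ (fun z : ℂ × ℂ => z.1.im) :=
    ⟨fun a c => by simp, fun a c => by simp⟩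
  have l4 : IsLinearMap ℝ (fun z : ℂ × ℂ => z.2.im) :=
    ⟨fun a c => by simp, fun a c => by simp⟩
  rw [e]
  exact (((((((convex_halfSpace_le l1 _).inter (convex_halfSpace_ge l1 _)).inter
    (convex_halfSpace_le l2 _)).inter (convex_halfSpace_ge l2 _)).inter
    (convex_halfSpace_le l3 _)).inter (convex_halfSpace_ge l3 _)).inter
    (convex_halfSpace_ge l4 _)).inter (convex_halfSpace_le l4 _)

theorem Pc_compact (X om y x h : ℝ) (ho : 0 ≤ om) (hh : 0 ≤ h) : IsCompact (Pc X om y x h) := by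
  have hcl : IsClosed (Pc X om y x h) := by
    simp only [Pc, setOf_and]
    refine IsClosed.inter ?_ (IsClosed.inter ?_ (IsClosed.inter ?_ (IsClosed.inter ?_
      (IsClosed.inter ?_ ?_))))
    · exact isClosed_le (by fun_prop) continuous_const
    · exact isClosed_le (by fun_prop) continuous_const
    · exact isClosed_le continuous_const (by fun_prop)
    · exact isClosed_le (by fun_prop) continuous_const
    · exact isClosed_le continuous_const (by fun_prop)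
    · exact isClosed_le (by fun_prop) continuous_const
  refine Metric.isCompact_of_isClosed_isBounded hcl ?_
  refine (isBounded_closedBall (x := (0 : ℂ × ℂ)) (r := |y| + |x| + 2 * (|X| * h))).subset ?_
  rintro z ⟨a1, a2, a3, a4, a5, a6⟩
  have hX : X * h ≤ |X| * h := mul_le_mul_of_nonneg_right (le_abs_self X) hh
  have h0 : 0 ≤ |X| * h := by positivity
  have h1 : 0 ≤ om * h := by positivity
  rw [mem_closedBall_zero_iff, Prod.norm_def]
  refine max_le ?_ ?_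
  · refine (Complex.norm_le_abs_re_add_abs_im _).trans ?_
    have b1 : |z.1.re| ≤ |y| + |X| * h := by
      have := abs_sub_abs_le_abs_sub z.1.re y
      linarith
    have b2 : |z.1.im| ≤ |X| * h := abs_le.2 ⟨by linarith, by linarith⟩
    have := abs_nonneg x
    linarith
  · refine (Complex.norm_le_abs_re_add_abs_im _).trans ?_
    have b1 : |z.2.re| ≤ |x| + |X| * h := by
      have := abs_sub_abs_le_abs_sub z.2.re x
      linarith
    have b2 : |z.2.im| ≤ |X| * h := abs_le.2 ⟨by linarith, by linarith⟩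
    have := abs_nonneg y
    linarith

/-- a chain of preconnected pieces -/
theorem preconn_chain {X : Type*} [TopologicalSpace X] {S : ℕ → Set X}
    (hS : ∀ i, IsPreconnected (S i)) (hc : ∀ i, (S i ∩ S (i + 1)).Nonempty) (n : ℕ) :
    IsPreconnected (⋃ i ∈ Iic n, S i) := by
  induction n with
  | zero =>
    have : (⋃ i ∈ Iic 0, S i) = S 0 := by
      ext x
      simp
    rw [this]; exact hS 0
  | succ n ih =>
    have e1 : (⋃ i ∈ Iic (n + 1), S i) = (⋃ i ∈ Iic n, S i) ∪ S (n + 1) := by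
      ext x
      simp only [mem_iUnion, mem_Iic, mem_union, exists_prop]
      constructor
      · rintro ⟨i, hi, hx⟩
        rcases Nat.le_succ_iff.1 hi with h | h
        · exact Or.inl ⟨i, h, hx⟩
        · subst h; exact Or.inr hx
      · rintro (⟨i, hi, hx⟩ | hx)
        · exact ⟨i, by omega, hx⟩
        · exact ⟨n + 1, le_rfl, hx⟩
    rw [e1]
    obtain ⟨x, h1, h2⟩ := hc n
    exact IsPreconnected.union x (by
      simp only [mem_iUnion, mem_Iic, exists_prop]; exact ⟨n, le_rfl, h1⟩) h2 ih (hS _)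

/-- telescoping along overlapping pieces -/
theorem tele {X E : Type*} [NormedAddCommGroup E] {S : ℕ → Set X} {L : X → E} {z₀ : X} {e : ℕ → ℝ}
    (hc : ∀ i, (S i ∩ S (i + 1)).Nonempty) (hz₀ : z₀ ∈ S 0)
    (ho : ∀ i, ∀ z ∈ S i, ∀ w ∈ S i, ‖L z - L w‖ ≤ e i) (i : ℕ) :
    ∀ z ∈ S i, ‖L z - L z₀‖ ≤ ∑ j ∈ Finset.range (i + 1), e j := by
  induction i with
  | zero =>
    intro z hz
    simpa using ho 0 z hz z₀ hz₀
  | succ i ih =>
    intro z hz
    obtain ⟨w, hw1, hw2⟩ := hc i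
    have h1 := ho (i + 1) z hz w hw2
    have h2 := ih w hw1
    rw [Finset.sum_range_succ]
    calc ‖L z - L z₀‖ = ‖(L z - L w) + (L w - L z₀)‖ := by congr 1; abel
      _ ≤ ‖L z - L w‖ + ‖L w - L z₀‖ := norm_add_le _ _
      _ ≤ _ := by linarith

/-- consecutive boxes overlap -/
theorem Pc_chain {X om : ℝ} (hX : 2 ≤ X) (ho2 : om ≤ 1 / 2) (y' x' : ℝ) (m i : ℕ) :
    (Pc X om y' x' ((1 / 2) ^ (m + i)) ∩ Pc X om y' x' ((1 / 2) ^ (m + (i + 1)))).Nonempty := by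
  have hpos : ∀ i : ℕ, (0 : ℝ) < (1 / 2) ^ (m + i) := fun i => by positivity
  have hh := hpos i
  refine ⟨pt y' x' ((1 / 2) ^ (m + (i + 1))), ?_, pt_self hX ho2 (hpos (i + 1))⟩
  have h1 : 2 * (1 / 2 : ℝ) ^ (m + i) ≤ X * (1 / 2) ^ (m + i) :=
    mul_le_mul_of_nonneg_right hX hh.le
  have h2 : om * (1 / 2 : ℝ) ^ (m + i) ≤ 1 / 2 * (1 / 2) ^ (m + i) :=
    mul_le_mul_of_nonneg_right ho2 hh.le
  refine pt_mem_Pc ?_ ?_ ?_ ?_
  · rw [sub_self, abs_zero]; linarith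
  · rw [sub_self, abs_zero]; linarith
  · rw [← add_assoc, pow_succ]; linarith
  · rw [← add_assoc, pow_succ]; linarith

/-- **EXIT, abstract form**. `L` = line, `G` = predicate which is transported along preconnected
sets on which `L` moves by less than `ρ₀`, and which fails somewhere on the boxes. -/
theorem exit_gen {E : Type*} [NormedAddCommGroup E] {X om : ℝ} (hX : 2 ≤ X) (ho : 0 < om)
    (ho2 : om ≤ 1 / 2) {L : ℂ × ℂ → E} {V : Set (ℂ × ℂ)} (hL : ContinuousOn L V)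
    {y' x' : ℝ} {m : ℕ} (hV : ∀ i : ℕ, Pc X om y' x' ((1 / 2) ^ (m + i)) ⊆ V)
    {z₀ : ℂ × ℂ} (hz₀ : z₀ ∈ Pc X om y' x' ((1 / 2) ^ m)) {G : ℂ × ℂ → Prop} {ρ₀ : ℝ}
    (hG : ∀ T : Set (ℂ × ℂ), IsPreconnected T → T ⊆ V → z₀ ∈ T →
      (∀ z ∈ T, ‖L z - L z₀‖ < ρ₀) → ∀ z ∈ T, G z)
    (hex : ∃ i : ℕ, ∃ z ∈ Pc X om y' x' ((1 / 2) ^ (m + i)), ¬ G z) {ρ : ℝ} (hρ1 : ρ ≤ ρ₀) :
    ∃ n : ℕ, ρ ≤ ∑ i ∈ Finset.range (n + 1),
        Metric.diam (L '' Pc X om y' x' ((1 / 2) ^ (m + i))) ∧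
      ∀ i < n, ∑ j ∈ Finset.range (i + 1),
          Metric.diam (L '' Pc X om y' x' ((1 / 2) ^ (m + j))) < ρ ∧
        ∀ z ∈ Pc X om y' x' ((1 / 2) ^ (m + i)), ‖L z - L z₀‖ < ρ ∧ G z := by
  have hpos : ∀ i : ℕ, (0 : ℝ) < (1 / 2) ^ (m + i) := fun i => by positivity
  have hcomp : ∀ i : ℕ, IsCompact (Pc X om y' x' ((1 / 2) ^ (m + i))) := fun i =>
    Pc_compact X om y' x' _ ho.le (hpos i).le
  have hbd : ∀ i : ℕ, Bornology.IsBounded (L '' Pc X om y' x' ((1 / 2) ^ (m + i))) := fun i =>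
    ((hcomp i).image_of_continuousOn (hL.mono (hV i))).isBounded
  have hosc : ∀ i : ℕ, ∀ z ∈ Pc X om y' x' ((1 / 2) ^ (m + i)),
      ∀ w ∈ Pc X om y' x' ((1 / 2) ^ (m + i)), ‖L z - L w‖ ≤
        Metric.diam (L '' Pc X om y' x' ((1 / 2) ^ (m + i))) := by
    intro i z hz' w hw
    rw [← dist_eq_norm]
    exact Metric.dist_le_diam_of_mem (hbd i) (mem_image_of_mem L hz') (mem_image_of_mem L hw)
  have hchain := Pc_chain hX ho2 y' x' m
  have hz₀' : z₀ ∈ Pc X om y' x' ((1 / 2) ^ (m + 0)) := by simpa using hz₀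
  have htel := fun i => tele (S := fun i => Pc X om y' x' ((1 / 2) ^ (m + i))) hchain hz₀' hosc i
  -- as long as the sum is small the predicate holds
  have hstay : ∀ n : ℕ, ∑ i ∈ Finset.range (n + 1),
      Metric.diam (L '' Pc X om y' x' ((1 / 2) ^ (m + i))) < ρ →
      ∀ z ∈ Pc X om y' x' ((1 / 2) ^ (m + n)), ‖L z - L z₀‖ < ρ ∧ G z := by
    intro n hn z hz'
    refine ⟨(htel n z hz').trans_lt hn, ?_⟩
    refine hG (⋃ i ∈ Iic n, Pc X om y' x' ((1 / 2) ^ (m + i)))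
      (preconn_chain (fun i => (Pc_convex _ _ _ _ _).isPreconnected) hchain n)
      (iUnion₂_subset fun i _ => hV i) ?_ ?_ z ?_
    · simp only [mem_iUnion, mem_Iic, exists_prop]
      exact ⟨0, Nat.zero_le _, hz₀'⟩
    · intro w hw
      simp only [mem_iUnion, mem_Iic, exists_prop] at hw
      obtain ⟨i, hi, hwi⟩ := hw
      refine (htel i w hwi).trans_lt (lt_of_le_of_lt ?_ (hn.trans_le hρ1))
      exact Finset.sum_le_sum_of_subset_of_nonneg
        (Finset.range_mono (by omega)) fun j _ _ => Metric.diam_nonneg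
    · simp only [mem_iUnion, mem_Iic, exists_prop]
      exact ⟨n, le_rfl, hz'⟩
  have hP : ∃ n : ℕ, ρ ≤ ∑ i ∈ Finset.range (n + 1),
      Metric.diam (L '' Pc X om y' x' ((1 / 2) ^ (m + i))) := by
    by_contra hcon
    push Not at hcon
    obtain ⟨i, z, hz', hz2⟩ := hex
    exact hz2 (hstay i (hcon i) z hz').2
  classical
  refine ⟨Nat.find hP, Nat.find_spec hP, fun i hi => ?_⟩
  have hs := not_le.1 (Nat.find_min hP hi)
  exact ⟨hs, hstay i hs⟩

/-- truncated oscillations: same sum -/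
theorem sum_trunc {d : ℕ → ℝ} (hd : ∀ i, 0 ≤ d i) {ρ : ℝ} (hρ : ρ ≤ 1) {n : ℕ}
    (h : ρ ≤ ∑ i ∈ Finset.range (n + 1), d i) :
    ρ ≤ ∑ i ∈ Finset.range (n + 1), min 1 (d i) := by
  by_cases hcase : ∃ i ∈ Finset.range (n + 1), 1 ≤ d i
  · obtain ⟨i, hi, h1⟩ := hcase
    have h2 : min 1 (d i) = 1 := min_eq_left h1
    have h3 : min 1 (d i) ≤ ∑ j ∈ Finset.range (n + 1), min 1 (d j) :=
      Finset.single_le_sum (f := fun j => min 1 (d j))
        (fun j _ => le_min zero_le_one (hd j)) hi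
    linarith
  · push Not at hcase
    refine h.trans (le_of_eq (Finset.sum_congr rfl fun i hi => ?_))
    exact (min_eq_right (hcase i hi).le).symm

/-- octave of a height -/
theorem exists_oct {m : ℕ} {h : ℝ} (h2 : h ≤ (1 / 2) ^ m) (i : ℕ) (hi : 1 ≤ i)
    (h1 : (1 / 2 : ℝ) ^ (m + i) ≤ h) :
    ∃ j < i, (1 / 2 : ℝ) ^ (m + (j + 1)) ≤ h ∧ h ≤ (1 / 2) ^ (m + j) := by
  induction i, hi using Nat.le_induction with
  | base => exact ⟨0, by norm_num, by simpa using h1, by simpa using h2⟩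
  | succ i hi ih =>
    rcases le_or_gt ((1 / 2 : ℝ) ^ (m + i)) h with h3 | h3
    · obtain ⟨j, hj, h4⟩ := ih h3
      exact ⟨j, by omega, h4⟩
    · exact ⟨i, by omega, h1, h3.le⟩

/-- axis points of the base vertical lie in the boxes -/
theorem zone_at {X om : ℝ} (hX : 2 ≤ X) (ho2 : om ≤ 1 / 2) {y' x' : ℝ} {m n : ℕ}
    {Q : ℂ × ℂ → Prop}
    (hz : ∀ j < n, ∀ z ∈ Pc X om y' x' ((1 / 2) ^ (m + j)), Q z) {i : ℕ} (hi : 1 ≤ i) (hin : i ≤ n)
    {h : ℝ} (h1 : (1 / 2 : ℝ) ^ (m + i) ≤ h) (h2 : h ≤ (1 / 2) ^ m) : Q (pt y' x' h) := by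
  obtain ⟨j, hj, h3, h4⟩ := exists_oct h2 i hi h1
  have hp : (0 : ℝ) < (1 / 2) ^ (m + j) := by positivity
  have k1 : 2 * (1 / 2 : ℝ) ^ (m + j) ≤ X * (1 / 2) ^ (m + j) :=
    mul_le_mul_of_nonneg_right hX hp.le
  have k2 : om * (1 / 2 : ℝ) ^ (m + j) ≤ 1 / 2 * (1 / 2) ^ (m + j) :=
    mul_le_mul_of_nonneg_right ho2 hp.le
  rw [← add_assoc, pow_succ] at h3
  refine hz j (by omega) _ (pt_mem_Pc ?_ ?_ ?_ ?_)
  · rw [sub_self, abs_zero]; linarith
  · rw [sub_self, abs_zero]; linarith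
  · linarith
  · linarith

end Vale.Agent.P097.H855.St
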